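import Vale.Agent.Lib.P266.Reg

/-- Let `A` be a normal finitely generated `ℂ`-domain, `m` a maximal ideal, `q ≤ m` an ideal with
`A_m / q A_m` regular, and suppose `Der(A)` is free at `m`. If each `z ∈ q` that is not in `m ^ 2`
is moved out of `m ^ 2` by a derivation projectable at `m`, then `A_m` is regular. -/
theorem Vale.Agent.Results.P266.B_projectable.result
    {A : Type*} [CommRing A] [IsDomain A] [IsIntegrallyClosed A] [Algebra ℂ A]
    [Algebra.FiniteType ℂ A] (m : Ideal A) [m.IsMaximal] (q : Ideal A) (hq : q ≤ m)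
    (hreg : IsRegularLocalRing (Localization.AtPrime m ⧸
      q.map (algebraMap A (Localization.AtPrime m))))
    (hfree : Module.Free (Localization.AtPrime m)
      (LocalizedModule m.primeCompl (Derivation ℂ A A)))
    (hproj : ∀ z ∈ q, (∀ E : Derivation ℂ A A,
      Vale.Agent.Lib.P266.IsProjectableAt m E → E z ∈ m ^ 2) → z ∈ m ^ 2) :
    IsRegularLocalRing (Localization.AtPrime m) :=
  Vale.Agent.Lib.P266.isRegularLocalRing_of_projectable m q hq hreg hfree hproj
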