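import Vale.Agent.Lib.P266.Reg

/-- Trace lemma: on a normal finitely generated `ℂ`-domain, with no freeness assumption, every
`A`-linear form on `Der(A)` sends a derivation projectable at the maximal ideal `m` into `m`. -/
theorem Vale.Agent.Results.P266.C_forms.result
    {A : Type*} [CommRing A] [IsDomain A] [IsIntegrallyClosed A] [Algebra ℂ A]
    [Algebra.FiniteType ℂ A] (m : Ideal A) [m.IsMaximal] (E : Derivation ℂ A A)
    (hE : Vale.Agent.Lib.P266.IsProjectableAt m E) (ω : Derivation ℂ A A →ₗ[A] A) : ω E ∈ m := by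
  obtain ⟨ev, hev⟩ := Vale.Agent.Lib.P266.exists_eval (k := ℂ) m
  obtain ⟨d, y, hy, hint, hym, hEy⟩ := hE
  exact (hev _).mp (Vale.Agent.Lib.P266.eval_omega_eq_zero y hy hint E hEy ev
    (fun i => (hev _).mpr (hym i)) ω)
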