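import Vale.Agent.Lib.P266_helper23.Main

open Vale.Agent.Lib.P266_helper23 in
/-- Let `A` be a finitely generated `ℂ`-domain with a descending multiplicative filtration `F` by
ideals, stable under all derivations, whose associated graded ring `R` is a normal domain, finitely
generated with `R_0 = ℂ`, having a homogeneous system of parameters and a canonical bivector `π` of
degree `k` (so `R` is Gorenstein with `a`-invariant `k`). Suppose `π` is the symbol of a bivector `Θ`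
of `A`. If `R_j = 0` for `0 < j < d` and `k ≤ 2 d + 1`, then `Der_ℂ(A)` is not free of rank two at the
maximal ideal `m = F 1`. -/
theorem Vale.Agent.Results.P266.D_filtered.result
    {A R : Type*} [CommRing A] [IsDomain A] [Algebra ℂ A] [Algebra.FiniteType ℂ A]
    [CommRing R] [IsDomain R] [IsIntegrallyClosed R] [Algebra ℂ R] [Algebra.FiniteType ℂ R]
    (𝒜 : ℕ → Submodule ℂ R) [GradedAlgebra 𝒜]
    (h𝒜0 : ∀ x ∈ 𝒜 0, ∃ c : ℂ, x = algebraMap ℂ R c)
    (y : Fin 2 → R) (deg : Fin 2 → ℕ) (hdeg : ∀ i, 0 < deg i) (hy : ∀ i, y i ∈ 𝒜 (deg i))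
    (hyalg : AlgebraicIndependent ℂ y)
    (hint : (MvPolynomial.aeval y : MvPolynomial (Fin 2) ℂ →ₐ[ℂ] R).toRingHom.IsIntegral)
    (F : ℕ → Ideal A) (φ : ℕ → A → R) (hG : IsAssocGraded F 𝒜 φ)
    (m : Ideal A) [m.IsMaximal] (hm : F 1 = m)
    (hstable : ∀ (D : Derivation ℂ A A) (n : ℕ) (x : A), x ∈ F n → D x ∈ F n)
    (π : R → R → R) (k : ℕ) (hπ : IsCanonicalBivector 𝒜 π k)
    (Θ : A → A → A) (hΘ : IsAltBider Θ)
    (hΘ1 : ∀ i j x y, x ∈ F i → y ∈ F j → Θ x y ∈ F (i + j + k))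
    (hΘ2 : ∀ i j x y, x ∈ F i → y ∈ F j → φ (i + j + k) (Θ x y) = π (φ i x) (φ j y))
    (d : ℕ) (hgap : ∀ j, 0 < j → j < d → 𝒜 j = ⊥) (hk : k ≤ 2 * d + 1) :
    ¬ Nonempty (Module.Basis (Fin 2) (Localization.AtPrime m)
      (LocalizedModule m.primeCompl (Derivation ℂ A A))) :=
  not_nonempty_basis 𝒜 h𝒜0 y deg hdeg hy hyalg hint F φ hG m hm hstable π k hπ Θ hΘ hΘ1 hΘ2 d
    hgap hk
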