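import Vale.Agent.Results.P266.A_graded
import Vale.Agent.Results.P266.B_projectable
import Vale.Agent.Results.P266.C_forms
import Vale.Agent.Results.P266.D_filtered

universe u v

namespace Vale.Agent.Results.P266.A00_master

/-- Part (1). Let `A` be a normal finitely generated `ℂ`-domain with a `ℤ`-grading `𝒜`, `y` a
homogeneous Noether normalization (degrees of any signs), `m` a maximal ideal containing the `y i`
and all homogeneous elements of nonzero degree. If `Der(A)` is free at `m` and the fixed scheme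
`A / (homogeneous elements of nonzero degree)` is regular at `m`, then `A` is regular at `m`. -/
def Graded : Prop :=
  ∀ {A : Type u} [CommRing A] [IsDomain A] [IsIntegrallyClosed A] [Algebra ℂ A]
    [Algebra.FiniteType ℂ A] (𝒜 : ℤ → Submodule ℂ A) [GradedAlgebra 𝒜]
    {d : ℕ} (y : Fin d → A) (_ : AlgebraicIndependent ℂ y)
    (_ : (MvPolynomial.aeval y : MvPolynomial (Fin d) ℂ →ₐ[ℂ] A).toRingHom.IsIntegral)
    (deg : Fin d → ℤ) (_ : ∀ i, y i ∈ 𝒜 (deg i))
    (m : Ideal A) [m.IsMaximal] (_ : ∀ i, y i ∈ m)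
    (_ : ∀ n : ℤ, n ≠ 0 → ∀ x ∈ 𝒜 n, x ∈ m)
    (_ : IsRegularLocalRing (Localization.AtPrime m ⧸
      (Vale.Agent.Lib.P266.nonzeroDegreeIdeal 𝒜).map (algebraMap A (Localization.AtPrime m))))
    (_ : Module.Free (Localization.AtPrime m)
      (LocalizedModule m.primeCompl (Derivation ℂ A A))),
    IsRegularLocalRing (Localization.AtPrime m)

/-- Part (2). Let `A` be a normal finitely generated `ℂ`-domain, `m` a maximal ideal, `q ≤ m` an ideal
with `A_m / q A_m` regular, and suppose `Der(A)` is free at `m`. If each `z ∈ q` that is not in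
`m ^ 2` is moved out of `m ^ 2` by a derivation projectable at `m`, then `A_m` is regular. -/
def Projectable : Prop :=
  ∀ {A : Type u} [CommRing A] [IsDomain A] [IsIntegrallyClosed A] [Algebra ℂ A]
    [Algebra.FiniteType ℂ A] (m : Ideal A) [m.IsMaximal] (q : Ideal A) (_ : q ≤ m)
    (_ : IsRegularLocalRing (Localization.AtPrime m ⧸
      q.map (algebraMap A (Localization.AtPrime m))))
    (_ : Module.Free (Localization.AtPrime m)
      (LocalizedModule m.primeCompl (Derivation ℂ A A)))
    (_ : ∀ z ∈ q, (∀ E : Derivation ℂ A A,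
      Vale.Agent.Lib.P266.IsProjectableAt m E → E z ∈ m ^ 2) → z ∈ m ^ 2),
    IsRegularLocalRing (Localization.AtPrime m)

/-- Part (3). On a normal finitely generated `ℂ`-domain, with no freeness assumption, every
`A`-linear form on `Der(A)` sends a derivation projectable at the maximal ideal `m` into `m`. -/
def Forms : Prop :=
  ∀ {A : Type u} [CommRing A] [IsDomain A] [IsIntegrallyClosed A] [Algebra ℂ A]
    [Algebra.FiniteType ℂ A] (m : Ideal A) [m.IsMaximal] (E : Derivation ℂ A A)
    (_ : Vale.Agent.Lib.P266.IsProjectableAt m E) (ω : Derivation ℂ A A →ₗ[A] A), ω E ∈ m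

open Vale.Agent.Lib.P266_helper23 in
/-- Part (4). Let `A` be a finitely generated `ℂ`-domain with a descending multiplicative filtration
`F` by ideals, stable under all derivations, whose associated graded ring `R` is a normal domain,
finitely generated with `R_0 = ℂ`, having a homogeneous system of parameters and a canonical bivector
`π` of degree `k`. Suppose `π` is the symbol of a bivector `Θ` of `A`. If `R_j = 0` for `0 < j < d` and
`k ≤ 2 d + 1`, then `Der_ℂ(A)` is not free of rank two at the maximal ideal `m = F 1`. -/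
def Filtered : Prop :=
  ∀ {A : Type u} {R : Type v} [CommRing A] [IsDomain A] [Algebra ℂ A] [Algebra.FiniteType ℂ A]
    [CommRing R] [IsDomain R] [IsIntegrallyClosed R] [Algebra ℂ R] [Algebra.FiniteType ℂ R]
    (𝒜 : ℕ → Submodule ℂ R) [GradedAlgebra 𝒜]
    (_ : ∀ x ∈ 𝒜 0, ∃ c : ℂ, x = algebraMap ℂ R c)
    (y : Fin 2 → R) (deg : Fin 2 → ℕ) (_ : ∀ i, 0 < deg i) (_ : ∀ i, y i ∈ 𝒜 (deg i))
    (_ : AlgebraicIndependent ℂ y)
    (_ : (MvPolynomial.aeval y : MvPolynomial (Fin 2) ℂ →ₐ[ℂ] R).toRingHom.IsIntegral)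
    (F : ℕ → Ideal A) (φ : ℕ → A → R) (_ : IsAssocGraded F 𝒜 φ)
    (m : Ideal A) [m.IsMaximal] (_ : F 1 = m)
    (_ : ∀ (D : Derivation ℂ A A) (n : ℕ) (x : A), x ∈ F n → D x ∈ F n)
    (π : R → R → R) (k : ℕ) (_ : IsCanonicalBivector 𝒜 π k)
    (Θ : A → A → A) (_ : IsAltBider Θ)
    (_ : ∀ i j x y, x ∈ F i → y ∈ F j → Θ x y ∈ F (i + j + k))
    (_ : ∀ i j x y, x ∈ F i → y ∈ F j → φ (i + j + k) (Θ x y) = π (φ i x) (φ j y))
    (d : ℕ) (_ : ∀ j, 0 < j → j < d → 𝒜 j = ⊥) (_ : k ≤ 2 * d + 1),
    ¬ Nonempty (Module.Basis (Fin 2) (Localization.AtPrime m)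
      (LocalizedModule m.primeCompl (Derivation ℂ A A)))

/-- The conjunction of the four parts, in any universes. -/
theorem result : Graded.{u} ∧ Projectable.{u} ∧ Forms.{u} ∧ Filtered.{u, v} :=
  ⟨Vale.Agent.Results.P266.A_graded.result, Vale.Agent.Results.P266.B_projectable.result,
    Vale.Agent.Results.P266.C_forms.result, Vale.Agent.Results.P266.D_filtered.result⟩

end Vale.Agent.Results.P266.A00_master
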