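import Vale.Agent.Lib.P266.Graded

/-- Let `A` be a normal finitely generated `ℂ`-domain with a `ℤ`-grading `𝒜`, `y` a homogeneous
Noether normalization (degrees of any signs), `m` a maximal ideal containing the `y i` and all
homogeneous elements of nonzero degree. If `Der(A)` is free at `m` and the fixed scheme
`A / (homogeneous elements of nonzero degree)` is regular at `m`, then `A` is regular at `m`. -/
theorem Vale.Agent.Results.P266.A_graded.result
    {A : Type*} [CommRing A] [IsDomain A] [IsIntegrallyClosed A] [Algebra ℂ A]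
    [Algebra.FiniteType ℂ A] (𝒜 : ℤ → Submodule ℂ A) [GradedAlgebra 𝒜]
    {d : ℕ} (y : Fin d → A) (hy : AlgebraicIndependent ℂ y)
    (hint : (MvPolynomial.aeval y : MvPolynomial (Fin d) ℂ →ₐ[ℂ] A).toRingHom.IsIntegral)
    (deg : Fin d → ℤ) (hdeg : ∀ i, y i ∈ 𝒜 (deg i))
    (m : Ideal A) [m.IsMaximal] (hym : ∀ i, y i ∈ m)
    (hm : ∀ n : ℤ, n ≠ 0 → ∀ x ∈ 𝒜 n, x ∈ m)
    (hreg : IsRegularLocalRing (Localization.AtPrime m ⧸
      (Vale.Agent.Lib.P266.nonzeroDegreeIdeal 𝒜).map (algebraMap A (Localization.AtPrime m))))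
    (hfree : Module.Free (Localization.AtPrime m)
      (LocalizedModule m.primeCompl (Derivation ℂ A A))) :
    IsRegularLocalRing (Localization.AtPrime m) :=
  Vale.Agent.Lib.P266.isRegularLocalRing_of_graded 𝒜 y hy hint deg hdeg m hym hm hreg hfree
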